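import Mathlib

open Polynomial

namespace Vale.Agent.H96

/-- A polynomial matrix is a finite Gram sum. -/
def FrSOS {n : Type} (Q : n → n → Polynomial ℝ) : Prop :=
  ∃ (ι : Type) (_ : Fintype ι) (V : ι → n → Polynomial ℝ), ∀ a b, Q a b = ∑ i, V i a * V i b

theorem frm_L1 {n : Type} (a0 : ℝ) (Q : n → n → Polynomial ℝ)
    (h : FrSOS (fun a b => (X - C a0) ^ 2 * Q a b)) : FrSOS Q := by
  obtain ⟨ι, hι, V, hV⟩ := h
  have hroot : ∀ i b, (X - C a0 : Polynomial ℝ) ∣ V i b := by
    intro i b
    rw [dvd_iff_isRoot]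
    have h1 := congrArg (fun q : Polynomial ℝ => q.eval a0) (hV b b)
    simp only [eval_mul, eval_pow, eval_sub, eval_X, eval_C, sub_self, eval_finsetSum] at h1
    have h2 : ∑ i, eval a0 (V i b) * eval a0 (V i b) = 0 := by
      rw [← h1]; ring
    have h3 := (Finset.sum_eq_zero_iff_of_nonneg
      (fun j _ => mul_self_nonneg (eval a0 (V j b)))).mp h2 i (Finset.mem_univ i)
    exact mul_self_eq_zero.mp h3
  choose V2 hV2 using hroot
  refine ⟨ι, hι, V2, fun a b => ?_⟩
  have hne : ((X - C a0 : Polynomial ℝ)) ^ 2 ≠ 0 := pow_ne_zero _ (X_sub_C_ne_zero a0)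
  apply mul_left_cancel₀ hne
  have := hV a b
  simp only at this
  rw [this, Finset.mul_sum]
  apply Finset.sum_congr rfl
  intro i _
  rw [hV2 i a, hV2 i b]; ring

theorem frm_scale {n : Type} (μ : ℝ) (hμ : 0 < μ) (Q : n → n → Polynomial ℝ)
    (h : FrSOS (fun a b => C μ * Q a b)) : FrSOS Q := by
  obtain ⟨ι, hι, V, hV⟩ := h
  refine ⟨ι, hι, fun i b => C (1 / Real.sqrt μ) * V i b, fun a b => ?_⟩
  have hs : Real.sqrt μ * Real.sqrt μ = μ := Real.mul_self_sqrt hμ.le
  have hs0 : Real.sqrt μ ≠ 0 := (Real.sqrt_pos.mpr hμ).ne'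
  have e : ∀ i, C (1 / Real.sqrt μ) * V i a * (C (1 / Real.sqrt μ) * V i b) =
      C (1 / μ) * (V i a * V i b) := by
    intro i
    have : (C (1 / Real.sqrt μ) : Polynomial ℝ) * C (1 / Real.sqrt μ) = C (1 / μ) := by
      rw [← C_mul, div_mul_div_comm, one_mul, hs]
    calc C (1 / Real.sqrt μ) * V i a * (C (1 / Real.sqrt μ) * V i b)
        = (C (1 / Real.sqrt μ) * C (1 / Real.sqrt μ)) * (V i a * V i b) := by ring
      _ = C (1 / μ) * (V i a * V i b) := by rw [this]
  rw [Finset.sum_congr rfl (fun i _ => e i), ← Finset.mul_sum]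
  have := hV a b
  simp only at this
  rw [← this, ← mul_assoc, ← C_mul]
  have : 1 / μ * μ = 1 := by field_simp
  rw [this, C_1, one_mul]

end Vale.Agent.H96

namespace Vale.Agent.H96

theorem frm_quad_eq (ζ : ℂ) :
    (X ^ 2 - C (2 * ζ.re) * X + C (‖ζ‖ ^ 2) : Polynomial ℝ) =
      (X - C ζ.re) ^ 2 + C (ζ.im ^ 2) := by
  have : ‖ζ‖ ^ 2 = ζ.re ^ 2 + ζ.im ^ 2 := by
    rw [Complex.sq_norm, Complex.normSq_apply]; ring
  rw [this]
  simp only [map_add, map_mul, map_pow, map_ofNat]
  ring

theorem frm_quad_natDegree (ζ : ℂ) :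
    (X ^ 2 - C (2 * ζ.re) * X + C (‖ζ‖ ^ 2) : Polynomial ℝ).natDegree = 2 := by
  rw [frm_quad_eq]
  have h1 : ((X - C ζ.re : Polynomial ℝ) ^ 2).natDegree = 2 := by
    rw [natDegree_pow, natDegree_X_sub_C]
  rw [natDegree_add_eq_left_of_natDegree_lt, h1]
  rw [h1, natDegree_C]; norm_num

theorem frm_quad_pos (ζ : ℂ) (hζ : ζ.im ≠ 0) (x : ℝ) :
    0 < (X ^ 2 - C (2 * ζ.re) * X + C (‖ζ‖ ^ 2) : Polynomial ℝ).eval x := by
  rw [frm_quad_eq]
  simp only [eval_add, eval_pow, eval_sub, eval_X, eval_C]
  have := sq_pos_of_ne_zero hζ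
  nlinarith [sq_nonneg (x - ζ.re)]

theorem frm_div
    (hL2 : ∀ (n : Type) [Fintype n] (ζ : ℂ), ζ.im ≠ 0 → ∀ (ι : Type) [Fintype ι]
      (V : ι → n → Polynomial ℝ) (Q : n → n → Polynomial ℝ),
      (∀ a b, (X ^ 2 - C (2 * ζ.re) * X + C (‖ζ‖ ^ 2)) * Q a b = ∑ i, V i a * V i b) →
      ∃ (ι' : Type) (_ : Fintype ι') (V' : ι' → n → Polynomial ℝ),
        ∀ a b, Q a b = ∑ i, V' i a * V' i b)
    (n : Type) [Fintype n] :
    ∀ (d : ℕ) (M : Polynomial ℝ), M.natDegree ≤ d → M ≠ 0 → (∀ x, 0 ≤ M.eval x) →
      ∀ Q : n → n → Polynomial ℝ, FrSOS (fun a b => M * Q a b) → FrSOS Q := by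
  intro d
  induction d with
  | zero =>
    intro M hdeg hM hpos Q h
    have hMC : M = C (M.coeff 0) := eq_C_of_natDegree_le_zero hdeg
    have hμ0 : M.coeff 0 ≠ 0 := by
      intro h0; apply hM; rw [hMC, h0, C_0]
    have hμ : 0 < M.coeff 0 := by
      have := hpos 0
      rw [hMC, eval_C] at this
      exact lt_of_le_of_ne this (Ne.symm hμ0)
    rw [hMC] at h
    exact frm_scale (M.coeff 0) hμ Q h
  | succ d ih =>
    intro M hdeg hM hpos Q h
    by_cases hd0 : M.natDegree ≤ d
    · exact ih M hd0 hM hpos Q h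
    · have hdeg' : M.natDegree = d + 1 := by omega
      have hdegpos : 0 < (M.map (algebraMap ℝ ℂ)).degree := by
        rw [degree_map]; exact natDegree_pos_iff_degree_pos.mp (by omega)
      obtain ⟨ζ, hζroot⟩ := Complex.exists_root hdegpos
      have haev : aeval ζ M = 0 := by
        rw [IsRoot.def, eval_map_algebraMap] at hζroot
        exact hζroot
      by_cases him : ζ.im = 0
      · set a := ζ.re with ha
        have hζa : ζ = (a : ℂ) := by apply Complex.ext <;> simp [him, ha]
        have hMa : M.eval a = 0 := by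
          rw [hζa] at haev
          have h1 := aeval_algebraMap_apply_eq_algebraMap_eval (A := ℂ) a M
          rw [Complex.coe_algebraMap] at h1
          rw [h1] at haev
          exact_mod_cast haev
        have hder : M.derivative.eval a = 0 := by
          have hmin : IsLocalMin (fun x => M.eval x) a :=
            Filter.Eventually.of_forall (fun x => by simp only; rw [hMa]; exact hpos x)
          have := hmin.deriv_eq_zero
          rwa [Polynomial.deriv] at this
        have hmult : 1 < M.rootMultiplicity a :=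
          (one_lt_rootMultiplicity_iff_isRoot hM).mpr ⟨hMa, hder⟩
        have hdvd : (X - C a) ^ 2 ∣ M := (le_rootMultiplicity_iff hM).mp hmult
        obtain ⟨M2, hM2⟩ := hdvd
        have hM2ne : M2 ≠ 0 := by
          rintro rfl; apply hM; rw [hM2, mul_zero]
        have hM2pos : ∀ x, 0 ≤ M2.eval x := by
          have hsub : ({a}ᶜ : Set ℝ) ⊆ {x | 0 ≤ M2.eval x} := by
            intro x hx
            have hxa : x ≠ a := hx
            have h1 := hpos x
            rw [hM2, eval_mul, eval_pow, eval_sub, eval_X, eval_C] at h1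
            have h2 : 0 < (x - a) ^ 2 := by
              have := sub_ne_zero.mpr hxa; positivity
            exact nonneg_of_mul_nonneg_right h1 h2
          have hcl : IsClosed {x : ℝ | 0 ≤ M2.eval x} :=
            isClosed_le continuous_const M2.continuous
          have := closure_minimal hsub hcl
          rw [(dense_compl_singleton a).closure_eq] at this
          intro x; exact this (Set.mem_univ x)
        have hdegM2 : M2.natDegree ≤ d := by
          have : M.natDegree = ((X - C a) ^ 2 : Polynomial ℝ).natDegree + M2.natDegree := by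
            rw [hM2]; exact natDegree_mul (pow_ne_zero _ (X_sub_C_ne_zero a)) hM2ne
          rw [natDegree_pow, natDegree_X_sub_C] at this
          omega
        apply ih M2 hdegM2 hM2ne hM2pos Q
        apply frm_L1 a
        obtain ⟨ι, hι, V, hV⟩ := h
        refine ⟨ι, hι, V, fun a' b' => ?_⟩
        rw [← hV a' b']; simp only; rw [hM2]; ring
      · obtain ⟨M2, hM2⟩ := Polynomial.quadratic_dvd_of_aeval_eq_zero_im_ne_zero M haev him
        have hM2ne : M2 ≠ 0 := by
          rintro rfl; apply hM; rw [hM2, mul_zero]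
        have hM2pos : ∀ x, 0 ≤ M2.eval x := by
          intro x
          have h1 := hpos x
          rw [hM2, eval_mul] at h1
          exact nonneg_of_mul_nonneg_right h1 (frm_quad_pos ζ him x)
        have hκne : (X ^ 2 - C (2 * ζ.re) * X + C (‖ζ‖ ^ 2) : Polynomial ℝ) ≠ 0 := by
          intro h0
          have := frm_quad_natDegree ζ
          rw [h0, natDegree_zero] at this
          omega
        have hdegM2 : M2.natDegree ≤ d := by
          have : M.natDegree = (X ^ 2 - C (2 * ζ.re) * X + C (‖ζ‖ ^ 2) : Polynomial ℝ).natDegree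
              + M2.natDegree := by
            rw [hM2]; exact natDegree_mul hκne hM2ne
          rw [frm_quad_natDegree] at this
          omega
        apply ih M2 hdegM2 hM2ne hM2pos Q
        obtain ⟨ι, hι, V, hV⟩ := h
        obtain ⟨ι', hι', V', hV'⟩ := hL2 n ζ him ι V (fun a b => M2 * Q a b)
          (fun a b => by rw [← hV a b]; simp only; rw [hM2]; ring)
        exact ⟨ι', hι', V', hV'⟩

end Vale.Agent.H96

namespace Vale.Agent.H96

theorem frm_expand {m : ℕ} (P : Fin (m + 1) → Fin (m + 1) → Polynomial ℝ)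
    (hsymm : ∀ a b, P a b = P b a) (x s : ℝ) (w : Fin m → ℝ) :
    ∑ a, ∑ b, (Fin.cons s w : Fin (m + 1) → ℝ) a * (P a b).eval x *
        (Fin.cons s w : Fin (m + 1) → ℝ) b
      = (P 0 0).eval x * (s * s) + (2 * ∑ a, (P 0 a.succ).eval x * w a) * s +
        ∑ a, ∑ b, w a * (P a.succ b.succ).eval x * w b := by
  rw [Fin.sum_univ_succ]
  simp only [Fin.sum_univ_succ, Fin.cons_zero, Fin.cons_succ]
  rw [Finset.sum_add_distrib]
  have e1 : ∑ b : Fin m, s * (P 0 b.succ).eval x * w b = s * ∑ b, (P 0 b.succ).eval x * w b := by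
    rw [Finset.mul_sum]; apply Finset.sum_congr rfl; intro b _; ring
  have e2 : ∑ a : Fin m, w a * (P a.succ 0).eval x * s = s * ∑ b, (P 0 b.succ).eval x * w b := by
    rw [Finset.mul_sum]; apply Finset.sum_congr rfl; intro b _; rw [hsymm b.succ 0]; ring
  rw [e1, e2]
  ring

theorem frm_main
    (hL2 : ∀ (n : Type) [Fintype n] (ζ : ℂ), ζ.im ≠ 0 → ∀ (ι : Type) [Fintype ι]
      (V : ι → n → Polynomial ℝ) (Q : n → n → Polynomial ℝ),
      (∀ a b, (X ^ 2 - C (2 * ζ.re) * X + C (‖ζ‖ ^ 2)) * Q a b = ∑ i, V i a * V i b) →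
      ∃ (ι' : Type) (_ : Fintype ι') (V' : ι' → n → Polynomial ℝ),
        ∀ a b, Q a b = ∑ i, V' i a * V' i b) :
    ∀ (m : ℕ) (P : Fin m → Fin m → Polynomial ℝ), (∀ a b, P a b = P b a) →
      (∀ (x : ℝ) (v : Fin m → ℝ), 0 ≤ ∑ a, ∑ b, v a * (P a b).eval x * v b) → FrSOS P := by
  intro m
  induction m with
  | zero =>
    intro P _ _
    exact ⟨PEmpty, inferInstance, fun i => i.elim, fun a => a.elim0⟩
  | succ m ih =>
    intro P hsymm hpsd
    set p := P 0 0 with hp
    set r : Fin m → Polynomial ℝ := fun a => P 0 a.succ with hr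
    set P' : Fin m → Fin m → Polynomial ℝ := fun a b => P a.succ b.succ with hP'
    have hquad : ∀ (x : ℝ) (w : Fin m → ℝ) (s : ℝ),
        0 ≤ p.eval x * (s * s) + (2 * ∑ a, (r a).eval x * w a) * s +
          ∑ a, ∑ b, w a * (P' a b).eval x * w b := by
      intro x w s
      have := hpsd x (Fin.cons s w)
      rw [frm_expand P hsymm x s w] at this
      exact this
    have hB : ∀ (x : ℝ) (w : Fin m → ℝ),
        (∑ a, (r a).eval x * w a) ^ 2 ≤ p.eval x * ∑ a, ∑ b, w a * (P' a b).eval x * w b := by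
      intro x w
      have := discrim_le_zero (hquad x w)
      unfold discrim at this
      nlinarith
    have hP'symm : ∀ a b, P' a b = P' b a := fun a b => hsymm _ _
    have hP'psd : ∀ (x : ℝ) (w : Fin m → ℝ), 0 ≤ ∑ a, ∑ b, w a * (P' a b).eval x * w b := by
      intro x w
      have := hquad x w 0
      simpa using this
    have hppos : ∀ x, 0 ≤ p.eval x := by
      intro x
      have := hquad x 0 1
      simpa using this
    by_cases hp0 : p = 0
    · have hr0 : ∀ a, r a = 0 := by
        intro a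
        apply Polynomial.funext
        intro x
        have h1 := hB x (Pi.single a 1)
        rw [hp0, eval_zero, zero_mul] at h1
        have h2 : ∑ a', (r a').eval x * (Pi.single a (1 : ℝ) : Fin m → ℝ) a' = (r a).eval x := by
          rw [Finset.sum_eq_single a]
          · simp
          · intro b _ hb; simp [hb]
          · intro h; exact absurd (Finset.mem_univ a) h
        rw [h2] at h1
        have h3 : (r a).eval x ^ 2 = 0 := le_antisymm h1 (sq_nonneg _)
        rw [eval_zero]
        exact pow_eq_zero_iff (two_ne_zero) |>.mp h3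
      obtain ⟨ι, hι, V', hV'⟩ := ih P' hP'symm hP'psd
      refine ⟨ι, hι, fun i => Fin.cons 0 (V' i), fun a b => ?_⟩
      refine Fin.cases ?_ (fun a => ?_) a
      · refine Fin.cases ?_ (fun b => ?_) b
        · simp only [Fin.cons_zero, mul_zero, Finset.sum_const_zero]
          exact hp0
        · simp only [Fin.cons_zero, zero_mul, Finset.sum_const_zero]
          exact hr0 b
      · refine Fin.cases ?_ (fun b => ?_) b
        · simp only [Fin.cons_zero, mul_zero, Finset.sum_const_zero]
          rw [hsymm]; exact hr0 a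
        · simp only [Fin.cons_succ]
          exact hV' a b
    · set S : Fin m → Fin m → Polynomial ℝ := fun a b => p * P' a b - r a * r b with hS
      have hSsymm : ∀ a b, S a b = S b a := by
        intro a b
        simp only [hS]
        rw [hP'symm a b, mul_comm (r a)]
      have hSpsd : ∀ (x : ℝ) (w : Fin m → ℝ), 0 ≤ ∑ a, ∑ b, w a * (S a b).eval x * w b := by
        intro x w
        have e : ∑ a, ∑ b, w a * (S a b).eval x * w b =
            p.eval x * ∑ a, ∑ b, w a * (P' a b).eval x * w b -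
              (∑ a, (r a).eval x * w a) ^ 2 := by
          rw [pow_two, Finset.sum_mul_sum, Finset.mul_sum, ← Finset.sum_sub_distrib]
          apply Finset.sum_congr rfl; intro a _
          rw [Finset.mul_sum, ← Finset.sum_sub_distrib]
          apply Finset.sum_congr rfl; intro b _
          simp only [hS, eval_sub, eval_mul]
          ring
        rw [e]
        linarith [hB x w]
      obtain ⟨ι, hι, V', hV'⟩ := ih S hSsymm hSpsd
      have hsos : FrSOS (fun a b => p * P a b) := by
        refine ⟨Option ι, inferInstance,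
          fun o => Option.elim o (Fin.cons p r) (fun i => Fin.cons 0 (V' i)), fun a b => ?_⟩
        rw [Fintype.sum_option]
        simp only [Option.elim_none, Option.elim_some]
        refine Fin.cases ?_ (fun a => ?_) a
        · refine Fin.cases ?_ (fun b => ?_) b
          · simp only [Fin.cons_zero, mul_zero, Finset.sum_const_zero, add_zero]
            rfl
          · simp only [Fin.cons_zero, Fin.cons_succ, zero_mul, Finset.sum_const_zero, add_zero]
            rfl
        · refine Fin.cases ?_ (fun b => ?_) b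
          · simp only [Fin.cons_zero, Fin.cons_succ, mul_zero, Finset.sum_const_zero, add_zero]
            rw [hsymm a.succ 0, mul_comm]
          · simp only [Fin.cons_succ]
            rw [← hV' a b]
            simp only [hS, hP']
            ring
      exact frm_div hL2 (Fin (m + 1)) p.natDegree p le_rfl hp0 hppos P hsos

theorem fejer_riesz_of
    (hL2 : ∀ (n : Type) [Fintype n] (ζ : ℂ), ζ.im ≠ 0 → ∀ (ι : Type) [Fintype ι]
      (V : ι → n → Polynomial ℝ) (Q : n → n → Polynomial ℝ),
      (∀ a b, (X ^ 2 - C (2 * ζ.re) * X + C (‖ζ‖ ^ 2)) * Q a b = ∑ i, V i a * V i b) →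
      ∃ (ι' : Type) (_ : Fintype ι') (V' : ι' → n → Polynomial ℝ),
        ∀ a b, Q a b = ∑ i, V' i a * V' i b)
    (m : ℕ) (P : Fin m → Fin m → Polynomial ℝ) (hsymm : ∀ a b, P a b = P b a)
    (hpsd : ∀ (x : ℝ) (v : Fin m → ℝ), 0 ≤ ∑ a, ∑ b, v a * (P a b).eval x * v b) :
    ∃ (ι : Type) (_ : Fintype ι) (V : ι → Fin m → Polynomial ℝ),
      ∀ a b, P a b = ∑ i, V i a * V i b :=
  frm_main hL2 m P hsymm hpsd

end Vale.Agent.H96
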