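import Vale.Agent.H96.FRQuad
import Vale.Agent.H96.FRMain

open Polynomial

namespace Vale.Agent.H96

/-- Matrix Fejer-Riesz theorem on the real line: a symmetric polynomial matrix that is positive
semidefinite at every real point is a finite Gram sum of polynomial vectors. -/
theorem fejer_riesz (m : ℕ) (P : Fin m → Fin m → Polynomial ℝ) (hsymm : ∀ a b, P a b = P b a)
    (hpsd : ∀ (x : ℝ) (v : Fin m → ℝ), 0 ≤ ∑ a, ∑ b, v a * (P a b).eval x * v b) :
    ∃ (ι : Type) (_ : Fintype ι) (V : ι → Fin m → Polynomial ℝ),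
      ∀ a b, P a b = ∑ i, V i a * V i b :=
  fejer_riesz_of (fun _ _ ζ hζ _ _ V Q h => sos_div_quadratic ζ hζ V Q h) m P hsymm hpsd

end Vale.Agent.H96
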