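import Mathlib

open Polynomial

namespace Vale.Agent.H96

section pyth
variable {R : Type*} [CommRing R] {ι : Type*} [Fintype ι]

/-- Pythagoras-type identity for removing two orthonormal directions from a Gram sum. -/
theorem frq_gram_sub (p q : ι → R) (hp : ∑ i, p i ^ 2 = 1) (hq : ∑ i, q i ^ 2 = 1)
    (hpq : ∑ i, p i * q i = 0) (va vb : ι → R) :
    ∑ i, (va i - p i * (∑ j, p j * va j) - q i * (∑ j, q j * va j)) *
         (vb i - p i * (∑ j, p j * vb j) - q i * (∑ j, q j * vb j))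
    = ∑ i, va i * vb i - (∑ j, p j * va j) * (∑ j, p j * vb j)
        - (∑ j, q j * va j) * (∑ j, q j * vb j) := by
  set fa := ∑ j, p j * va j with hfa
  set fb := ∑ j, p j * vb j with hfb
  set ga := ∑ j, q j * va j with hga
  set gb := ∑ j, q j * vb j with hgb
  have e : ∀ i, (va i - p i * fa - q i * ga) * (vb i - p i * fb - q i * gb) =
      va i * vb i - fb * (p i * va i) - gb * (q i * va i) - fa * (p i * vb i)
        + fa * fb * (p i ^ 2) + (fa * gb + ga * fb) * (p i * q i) - ga * (q i * vb i)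
        + ga * gb * (q i ^ 2) := by
    intro i; ring
  rw [Finset.sum_congr rfl (fun i _ => e i)]
  simp only [Finset.sum_add_distrib, Finset.sum_sub_distrib, ← Finset.mul_sum]
  rw [hp, hq, hpq, ← hfa, ← hfb, ← hga, ← hgb]
  ring

end pyth

theorem frq_quad_eq (ζ : ℂ) :
    (X ^ 2 - C (2 * ζ.re) * X + C (‖ζ‖ ^ 2) : Polynomial ℝ) =
      (X - C ζ.re) ^ 2 + C ζ.im ^ 2 := by
  have : ‖ζ‖ ^ 2 = ζ.re ^ 2 + ζ.im ^ 2 := by
    rw [Complex.sq_norm, Complex.normSq_apply]; ring
  rw [this]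
  simp only [map_add, map_mul, map_pow, map_ofNat]
  ring

theorem frq_sub_re_eq (ζ : ℂ) : ζ - (ζ.re : ℂ) = (ζ.im : ℂ) * Complex.I := by
  apply Complex.ext <;> simp

/-- The quadratic vanishes at `ζ`. -/
theorem frq_aeval_quad (ζ : ℂ) :
    aeval ζ (X ^ 2 - C (2 * ζ.re) * X + C (‖ζ‖ ^ 2) : Polynomial ℝ) = 0 := by
  rw [frq_quad_eq]
  simp only [map_add, map_sub, map_pow, aeval_X, aeval_C, Complex.coe_algebraMap]
  rw [frq_sub_re_eq, mul_pow, Complex.I_sq]
  ring

theorem frq_quad_ne_zero (ζ : ℂ) :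
    (X ^ 2 - C (2 * ζ.re) * X + C (‖ζ‖ ^ 2) : Polynomial ℝ) ≠ 0 := by
  intro h
  have h2 := congrArg (fun p : Polynomial ℝ => p.eval (ζ.re + 1)) h
  rw [frq_quad_eq] at h2
  simp at h2
  nlinarith [sq_nonneg ζ.im]

theorem frq_aux_base (ζ : ℂ) (hζ : ζ.im ≠ 0) {n : Type} {ι : Type} [Fintype ι]
    (V : ι → n → Polynomial ℝ) (hgood : ∀ i b, aeval ζ (V i b) = 0) :
    ∃ (ι' : Type) (_ : Fintype ι') (V' : ι' → n → Polynomial ℝ),
      ∀ a b, ∑ i, V i a * V i b =
        (X ^ 2 - C (2 * ζ.re) * X + C (‖ζ‖ ^ 2)) * ∑ i, V' i a * V' i b := by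
  have hdvd : ∀ i b, (X ^ 2 - C (2 * ζ.re) * X + C (‖ζ‖ ^ 2) : Polynomial ℝ) ∣ V i b :=
    fun i b => Polynomial.quadratic_dvd_of_aeval_eq_zero_im_ne_zero _ (hgood i b) hζ
  choose V2 hV2 using hdvd
  refine ⟨ι ⊕ ι, inferInstance, fun s b =>
    Sum.elim (fun i => (X - C ζ.re) * V2 i b) (fun i => C ζ.im * V2 i b) s, ?_⟩
  intro a b
  rw [Fintype.sum_sum_type]
  simp only [Sum.elim_inl, Sum.elim_inr]
  rw [← Finset.sum_add_distrib, Finset.mul_sum]
  apply Finset.sum_congr rfl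
  intro i _
  rw [hV2 i a, hV2 i b, frq_quad_eq]
  ring

theorem frq_aux_step (ζ : ℂ) (hζ : ζ.im ≠ 0) {n : Type} {ι : Type} [Fintype ι]
    (V : ι → n → Polynomial ℝ)
    (hiso : ∀ a b, ∑ i, aeval ζ (V i a) * aeval ζ (V i b) = 0)
    (j0 : n) (i0 : ι) (hbad : aeval ζ (V i0 j0) ≠ 0) :
    ∃ (W : ι → n → Polynomial ℝ) (f' g' : n → Polynomial ℝ),
      (∀ a b, ∑ i, V i a * V i b = ∑ i, W i a * W i b +
          (X ^ 2 - C (2 * ζ.re) * X + C (‖ζ‖ ^ 2)) * (f' a * f' b + g' a * g' b)) ∧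
      (∀ a b, ∑ i, aeval ζ (W i a) * aeval ζ (W i b) = 0) ∧
      (∀ b, (∀ i, aeval ζ (V i b) = 0) → ∀ i, aeval ζ (W i b) = 0) ∧
      (∀ i, aeval ζ (W i j0) = 0) := by
  set u : ι → n → ℂ := fun i b => aeval ζ (V i b) with hu_def
  set A : ι → ℝ := fun i => (u i j0).re with hA
  set B : ι → ℝ := fun i => (u i j0).im with hB
  have h0 := hiso j0 j0
  have hre : ∑ i, (A i * A i - B i * B i) = 0 := by
    have := congrArg Complex.re h0
    simpa [Complex.re_sum, Complex.mul_re] using this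
  have him : ∑ i, (A i * B i + B i * A i) = 0 := by
    have := congrArg Complex.im h0
    simpa [Complex.im_sum, Complex.mul_im] using this
  set s2 : ℝ := ∑ i, A i ^ 2 with hs2
  have hs2B : ∑ i, B i ^ 2 = s2 := by
    rw [hs2]
    have : ∑ i, (A i * A i - B i * B i) = ∑ i, A i ^ 2 - ∑ i, B i ^ 2 := by
      rw [← Finset.sum_sub_distrib]
      apply Finset.sum_congr rfl; intro i _; ring
    linarith
  have hAB : ∑ i, A i * B i = 0 := by
    have : ∑ i, (A i * B i + B i * A i) = 2 * ∑ i, A i * B i := by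
      rw [Finset.mul_sum]
      apply Finset.sum_congr rfl; intro i _; ring
    linarith
  have hs2pos : 0 < s2 := by
    have hne : A i0 ≠ 0 ∨ B i0 ≠ 0 := by
      by_contra hcon
      simp only [not_or, not_not] at hcon
      apply hbad
      apply Complex.ext
      · exact hcon.1
      · exact hcon.2
    have h1 : A i0 ^ 2 ≤ s2 :=
      Finset.single_le_sum (f := fun i => A i ^ 2) (fun i _ => sq_nonneg _) (Finset.mem_univ i0)
    have h2 : B i0 ^ 2 ≤ ∑ i, B i ^ 2 :=
      Finset.single_le_sum (f := fun i => B i ^ 2) (fun i _ => sq_nonneg _) (Finset.mem_univ i0)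
    rcases hne with h | h
    · have : 0 < A i0 ^ 2 := by positivity
      linarith
    · have : 0 < B i0 ^ 2 := by positivity
      linarith
  set s : ℝ := Real.sqrt s2 with hs
  have hspos : 0 < s := Real.sqrt_pos.mpr hs2pos
  have hss : s * s = s2 := Real.mul_self_sqrt hs2pos.le
  set p : ι → ℝ := fun i => A i / s with hp_def
  set q : ι → ℝ := fun i => B i / s with hq_def
  have hp : ∑ i, p i ^ 2 = 1 := by
    have : ∀ i, p i ^ 2 = A i ^ 2 / s2 := by
      intro i; rw [hp_def, ← hss]; field_simp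
    rw [Finset.sum_congr rfl (fun i _ => this i), ← Finset.sum_div, ← hs2]
    exact div_self hs2pos.ne'
  have hq : ∑ i, q i ^ 2 = 1 := by
    have : ∀ i, q i ^ 2 = B i ^ 2 / s2 := by
      intro i; rw [hq_def, ← hss]; field_simp
    rw [Finset.sum_congr rfl (fun i _ => this i), ← Finset.sum_div, hs2B]
    exact div_self hs2pos.ne'
  have hpq : ∑ i, p i * q i = 0 := by
    have : ∀ i, p i * q i = A i * B i / s2 := by
      intro i; rw [hp_def, hq_def, ← hss]; field_simp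
    rw [Finset.sum_congr rfl (fun i _ => this i), ← Finset.sum_div, hAB, zero_div]
  have hu : ∀ i, u i j0 = (s : ℂ) * ((p i : ℂ) + (q i : ℂ) * Complex.I) := by
    intro i
    have h1 : s * p i = A i := by rw [hp_def]; field_simp
    have h2 : s * q i = B i := by rw [hq_def]; field_simp
    apply Complex.ext
    · simp [h1, hA]
    · simp [h2, hB]
  have hpC : ∑ i, ((p i : ℝ) : ℂ) ^ 2 = 1 := by exact_mod_cast hp
  have hqC : ∑ i, ((q i : ℝ) : ℂ) ^ 2 = 1 := by exact_mod_cast hq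
  have hpqC : ∑ i, ((p i : ℝ) : ℂ) * ((q i : ℝ) : ℂ) = 0 := by exact_mod_cast hpq
  -- the two combinations
  set f : n → Polynomial ℝ := fun b => ∑ i, C (p i) * V i b with hf
  set g : n → Polynomial ℝ := fun b => ∑ i, C (q i) * V i b with hg
  set W : ι → n → Polynomial ℝ := fun i b => V i b - C (p i) * f b - C (q i) * g b with hW
  have hpP : ∑ i, (C (p i) : Polynomial ℝ) ^ 2 = 1 := by
    simp_rw [← C_pow]
    rw [← map_sum, hp, C_1]
  have hqP : ∑ i, (C (q i) : Polynomial ℝ) ^ 2 = 1 := by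
    simp_rw [← C_pow]
    rw [← map_sum, hq, C_1]
  have hpqP : ∑ i, (C (p i) : Polynomial ℝ) * C (q i) = 0 := by
    simp_rw [← C_mul]
    rw [← map_sum, hpq, C_0]
  have hpyth : ∀ a b, ∑ i, W i a * W i b = ∑ i, V i a * V i b - f a * f b - g a * g b := by
    intro a b
    exact frq_gram_sub (fun i => C (p i)) (fun i => C (q i)) hpP hqP hpqP
      (fun i => V i a) (fun i => V i b)
  set φ : n → ℂ := fun b => aeval ζ (f b) with hφ
  set γ : n → ℂ := fun b => aeval ζ (g b) with hγ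
  have hφ' : ∀ b, φ b = ∑ i, (p i : ℂ) * u i b := by
    intro b
    simp only [hφ, hf, map_sum, map_mul, aeval_C, Complex.coe_algebraMap, hu_def]
  have hγ' : ∀ b, γ b = ∑ i, (q i : ℂ) * u i b := by
    intro b
    simp only [hγ, hg, map_sum, map_mul, aeval_C, Complex.coe_algebraMap, hu_def]
  have hγφ : ∀ b, γ b = Complex.I * φ b := by
    intro b
    have h1 : ∑ i, u i j0 * u i b = (s : ℂ) * (φ b + Complex.I * γ b) := by
      rw [hφ', hγ', Finset.mul_sum, ← Finset.sum_add_distrib, Finset.mul_sum]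
      apply Finset.sum_congr rfl
      intro i _
      rw [hu i]; ring
    have h2 : (s : ℂ) * (φ b + Complex.I * γ b) = 0 := by
      rw [← h1]; exact hiso j0 b
    have hsne : (s : ℂ) ≠ 0 := by exact_mod_cast hspos.ne'
    have h3 : φ b + Complex.I * γ b = 0 := by
      rcases mul_eq_zero.mp h2 with h | h
      · exact absurd h hsne
      · exact h
    linear_combination (-Complex.I) * h3 + (γ b) * Complex.I_sq
  -- divisibility
  have hd1 : ∀ b, (X ^ 2 - C (2 * ζ.re) * X + C (‖ζ‖ ^ 2) : Polynomial ℝ) ∣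
      (X - C ζ.re) * f b - C ζ.im * g b := by
    intro b
    apply Polynomial.quadratic_dvd_of_aeval_eq_zero_im_ne_zero _ _ hζ
    simp only [map_sub, map_mul, aeval_X, aeval_C, Complex.coe_algebraMap]
    change (ζ - (ζ.re : ℂ)) * φ b - (ζ.im : ℂ) * γ b = 0
    rw [frq_sub_re_eq, hγφ b]; ring
  have hd2 : ∀ b, (X ^ 2 - C (2 * ζ.re) * X + C (‖ζ‖ ^ 2) : Polynomial ℝ) ∣
      (X - C ζ.re) * g b + C ζ.im * f b := by
    intro b
    apply Polynomial.quadratic_dvd_of_aeval_eq_zero_im_ne_zero _ _ hζ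
    simp only [map_sub, map_add, map_mul, aeval_X, aeval_C, Complex.coe_algebraMap]
    change (ζ - (ζ.re : ℂ)) * γ b + (ζ.im : ℂ) * φ b = 0
    rw [frq_sub_re_eq, hγφ b]
    linear_combination ((ζ.im : ℂ) * φ b) * Complex.I_sq
  choose f' hf' using hd1
  choose g' hg' using hd2
  have hfg : ∀ a b, (X ^ 2 - C (2 * ζ.re) * X + C (‖ζ‖ ^ 2) : Polynomial ℝ) *
      (f' a * f' b + g' a * g' b) = f a * f b + g a * g b := by
    intro a b
    apply mul_left_cancel₀ (frq_quad_ne_zero ζ)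
    have e1 : (X ^ 2 - C (2 * ζ.re) * X + C (‖ζ‖ ^ 2) : Polynomial ℝ) *
        ((X ^ 2 - C (2 * ζ.re) * X + C (‖ζ‖ ^ 2)) * (f' a * f' b + g' a * g' b)) =
        ((X - C ζ.re) * f a - C ζ.im * g a) * ((X - C ζ.re) * f b - C ζ.im * g b) +
        ((X - C ζ.re) * g a + C ζ.im * f a) * ((X - C ζ.re) * g b + C ζ.im * f b) := by
      rw [hf' a, hf' b, hg' a, hg' b]; ring
    rw [e1, frq_quad_eq]; ring
  refine ⟨W, f', g', ?_, ?_, ?_, ?_⟩
  · intro a b
    rw [hpyth a b, hfg a b]; ring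
  · intro a b
    have e1 : ∑ i, aeval ζ (W i a) * aeval ζ (W i b) = aeval ζ (∑ i, W i a * W i b) := by
      simp only [map_sum, map_mul]
    rw [e1, hpyth a b]
    simp only [map_sub, map_sum, map_mul]
    change ∑ i, u i a * u i b - φ a * φ b - γ a * γ b = 0
    rw [hiso a b, hγφ a, hγφ b]
    linear_combination (-(φ a * φ b)) * Complex.I_sq
  · intro b hb i
    have hφ0 : φ b = 0 := by
      rw [hφ' b]; apply Finset.sum_eq_zero; intro j _; rw [hu_def]; simp only; rw [hb j, mul_zero]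
    have hγ0 : γ b = 0 := by rw [hγφ b, hφ0, mul_zero]
    simp only [hW, map_sub, map_mul, aeval_C, Complex.coe_algebraMap]
    change aeval ζ (V i b) - (p i : ℂ) * φ b - (q i : ℂ) * γ b = 0
    rw [hb i, hφ0, hγ0]; ring
  · intro i
    have hφs : φ j0 = (s : ℂ) := by
      rw [hφ' j0]
      have : ∀ j, (p j : ℂ) * u j j0 = (s : ℂ) * ((p j : ℂ) ^ 2 + Complex.I * ((p j : ℂ) * (q j : ℂ))) := by
        intro j; rw [hu j]; ring
      rw [Finset.sum_congr rfl (fun j _ => this j), ← Finset.mul_sum, Finset.sum_add_distrib,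
        ← Finset.mul_sum, hpC, hpqC]
      ring
    have hγs : γ j0 = (s : ℂ) * Complex.I := by rw [hγφ j0, hφs]; ring
    simp only [hW, map_sub, map_mul, aeval_C, Complex.coe_algebraMap]
    change u i j0 - (p i : ℂ) * φ j0 - (q i : ℂ) * γ j0 = 0
    rw [hu i, hφs, hγs]; ring

end Vale.Agent.H96

namespace Vale.Agent.H96

open Classical in
theorem frq_aux_main (ζ : ℂ) (hζ : ζ.im ≠ 0) {n : Type} [Fintype n] :
    ∀ (N : ℕ) (ι : Type) [Fintype ι] (V : ι → n → Polynomial ℝ),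
      (∀ a b, ∑ i, aeval ζ (V i a) * aeval ζ (V i b) = 0) →
      (Finset.univ.filter (fun b => ∃ i, aeval ζ (V i b) ≠ 0)).card ≤ N →
      ∃ (ι' : Type) (_ : Fintype ι') (V' : ι' → n → Polynomial ℝ),
        ∀ a b, ∑ i, V i a * V i b =
          (X ^ 2 - C (2 * ζ.re) * X + C (‖ζ‖ ^ 2)) * ∑ i, V' i a * V' i b := by
  intro N
  induction N with
  | zero =>
    intro ι _ V hiso hcard
    apply frq_aux_base ζ hζ V
    intro i b
    by_contra hne
    have hmem : b ∈ Finset.univ.filter (fun b => ∃ i, aeval ζ (V i b) ≠ 0) := by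
      rw [Finset.mem_filter]; exact ⟨Finset.mem_univ _, i, hne⟩
    have := Finset.card_pos.mpr ⟨b, hmem⟩
    omega
  | succ N ih =>
    intro ι _ V hiso hcard
    by_cases hex : ∃ j0 i0, aeval ζ (V i0 j0) ≠ 0
    · obtain ⟨j0, i0, hbad⟩ := hex
      obtain ⟨W, f', g', h1, h2, h3, h4⟩ := frq_aux_step ζ hζ V hiso j0 i0 hbad
      have hsub : Finset.univ.filter (fun b => ∃ i, aeval ζ (W i b) ≠ 0) ⊆
          (Finset.univ.filter (fun b => ∃ i, aeval ζ (V i b) ≠ 0)).erase j0 := by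
        intro b hb
        rw [Finset.mem_filter] at hb
        obtain ⟨i, hi⟩ := hb.2
        rw [Finset.mem_erase, Finset.mem_filter]
        refine ⟨?_, Finset.mem_univ _, ?_⟩
        · rintro rfl
          exact hi (h4 i)
        · by_contra hcon
          simp only [not_exists, not_not] at hcon
          exact hi (h3 b hcon i)
      have hj0 : j0 ∈ Finset.univ.filter (fun b => ∃ i, aeval ζ (V i b) ≠ 0) := by
        rw [Finset.mem_filter]; exact ⟨Finset.mem_univ _, i0, hbad⟩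
      have hc1 := Finset.card_le_card hsub
      rw [Finset.card_erase_of_mem hj0] at hc1
      have hj0pos := Finset.card_pos.mpr ⟨j0, hj0⟩
      obtain ⟨ι2, hι2, V2, hV2⟩ := ih ι W h2 (by omega)
      refine ⟨ι2 ⊕ Bool, inferInstance, fun s b =>
        Sum.elim (fun i => V2 i b) (fun t => if t then f' b else g' b) s, ?_⟩
      intro a b
      rw [h1 a b, hV2 a b, Fintype.sum_sum_type]
      simp only [Sum.elim_inl, Sum.elim_inr, Fintype.sum_bool, if_true]
      simp only [Bool.false_eq_true, if_false]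
      ring
    · apply frq_aux_base ζ hζ V
      intro i b
      by_contra hne
      exact hex ⟨b, i, hne⟩

theorem sos_div_quadratic {n : Type} [Fintype n] (ζ : ℂ) (hζ : ζ.im ≠ 0) {ι : Type} [Fintype ι]
    (V : ι → n → Polynomial ℝ) (Q : n → n → Polynomial ℝ)
    (h : ∀ a b, (X ^ 2 - C (2 * ζ.re) * X + C (‖ζ‖ ^ 2)) * Q a b = ∑ i, V i a * V i b) :
    ∃ (ι' : Type) (_ : Fintype ι') (V' : ι' → n → Polynomial ℝ),
      ∀ a b, Q a b = ∑ i, V' i a * V' i b := by
  classical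
  have hiso : ∀ a b, ∑ i, aeval ζ (V i a) * aeval ζ (V i b) = 0 := by
    intro a b
    have e1 : ∑ i, aeval ζ (V i a) * aeval ζ (V i b) = aeval ζ (∑ i, V i a * V i b) := by
      simp only [map_sum, map_mul]
    rw [e1, ← h a b, map_mul, frq_aeval_quad, zero_mul]
  obtain ⟨ι', hι', V', hV'⟩ := frq_aux_main ζ hζ _ ι V hiso le_rfl
  refine ⟨ι', hι', V', fun a b => ?_⟩
  apply mul_left_cancel₀ (frq_quad_ne_zero ζ)
  rw [h a b, hV' a b]

end Vale.Agent.H96
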